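import Vale.Agent.P184.Main2

/-!
P184 (the l1-Bass conjecture): vanishing of the trace coefficients of idempotents over `ℓ¹(G)` at
conjugacy classes of infinite order.  Second version: all linear groups.
-/

namespace Vale.Agent.Results.P184.AllLinear

open Vale.Agent.P184

universe u v

theorem result :
    -- (1) linear groups over an arbitrary field: all elements without a unipotent power
    (∀ (G : Type u) [Group G] (K : Type v) [Field K] (n : ℕ) (ρ : G →* GL (Fin n) K) (g : G),
      (∀ m : ℕ, 0 < m →
        ¬ IsNilpotent (((ρ g : GL (Fin n) K) : Matrix (Fin n) (Fin n) K) ^ m - 1)) →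
      Vanish g) ∧
    -- (2) linear groups in positive characteristic: all elements with image of infinite order
    (∀ (G : Type u) [Group G] (p : ℕ) [Fact p.Prime] (K : Type v) [Field K] [CharP K p] (n : ℕ)
      (ρ : G →* GL (Fin n) K) (g : G), ¬ IsOfFinOrder (ρ g) → Vanish g) ∧
    -- (3) groups of units of division algebras: all elements with image of infinite order
    (∀ (G : Type u) [Group G] (K : Type v) [Field K] (D : Type v) [DivisionRing D] [Algebra K D]
      [FiniteDimensional K D] (ρ : G →* Dˣ) (g : G), ¬ IsOfFinOrder (ρ g) → Vanish g) ∧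
    -- (4) the general criterion
    (∀ (G : Type u) [Group G] (g : G) (L : G → ℝ)
      (h : Subgroup.centralizer ({g} : Set G) → ℝ) (A : ℝ), IsLength L →
      (∀ k k', h (k * k') = h k + h k') → (∀ k, |h k| ≤ A + L k) →
      (∀ k : Subgroup.centralizer ({g} : Set G), (k : G) = g → h k ≠ 0) → Vanish g) ∧
    -- (5) undistorted elements with amenable centralizer
    (∀ (G : Type u) [Group G] (g : G) (L : G → ℝ), IsLength L →
      (∃ c : ℝ, 0 < c ∧ ∀ n : ℕ, c * n ≤ L (g ^ n)) →
      IsAmenable (Subgroup.centralizer ({g} : Set G)) → Vanish g) ∧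
    -- (6) isometric actions on CAT(0) spaces: all elements of positive stable translation length
    (∀ (G : Type u) [Group G] (X : Type v) [MetricSpace X] [MulAction G X], CN X →
      (∀ (x : G) (s t : X), dist (x • s) (x • t) = dist s t) →
      ∀ (g : G) (o : X), (∃ c : ℝ, 0 < c ∧ ∀ n : ℕ, c * n ≤ dist (g ^ n • o) o) → Vanish g) ∧
    -- (7) Q1 holds for a group with finitely many torsion classes as soon as all elements of
    -- infinite order are as above: linear groups over an arbitrary field whose unipotent elements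
    -- have finite order, linear groups in positive characteristic, groups of units of division
    -- algebras
    (∀ (G : Type u) [Group G], FinTors G → (∀ g : G, ¬ IsOfFinOrder g → Vanish g) → BassQ1 G) ∧
    (∀ (G : Type u) [Group G] (K : Type v) [Field K] (n : ℕ) (ρ : G →* GL (Fin n) K),
      (∀ g : G, IsNilpotent (((ρ g : GL (Fin n) K) : Matrix (Fin n) (Fin n) K) - 1) →
        IsOfFinOrder g) → FinTors G → BassQ1 G) ∧
    (∀ (G : Type u) [Group G] (p : ℕ) [Fact p.Prime] (K : Type v) [Field K] [CharP K p] (n : ℕ)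
      (ρ : G →* GL (Fin n) K), Function.Injective ρ → FinTors G → BassQ1 G) ∧
    (∀ (G : Type u) [Group G] (K : Type v) [Field K] (D : Type v) [DivisionRing D] [Algebra K D]
      [FiniteDimensional K D] (ρ : G →* Dˣ), Function.Injective ρ → FinTors G → BassQ1 G) := by
  have hcp : ∀ (G : Type u) [Group G] (p : ℕ) [Fact p.Prime] (K : Type v) [Field K] [CharP K p]
      (n : ℕ) (ρ : G →* GL (Fin n) K) (g : G), ¬ IsOfFinOrder (ρ g) → Crit g := by
    intro G _ p _ K _ _ n ρ g hg
    refine charp G p K n ρ g (fun m hm hm1 => hg ?_)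
    exact isOfFinOrder_iff_pow_eq_one.mpr ⟨m, hm, hm1⟩
  have hcat : ∀ (G : Type u) [Group G] (X : Type v) [MetricSpace X] [MulAction G X], CN X →
      (∀ (x : G) (s t : X), dist (x • s) (x • t) = dist s t) →
      ∀ (g : G) (o : X), (∃ c : ℝ, 0 < c ∧ ∀ n : ℕ, c * n ≤ dist (g ^ n • o) o) → Crit g := by
    intro G _ X _ _ hX hiso g o ho
    exact CA.cat_proof G X hX (fun x s => x • s) (fun x y s => mul_smul x y s)
      (fun s => one_smul G s) hiso g o ho
  have hfo : ∀ (G : Type u) [Group G] (H : Type v) [Group H] (ρ : G →* H),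
      Function.Injective ρ → ∀ g : G, IsOfFinOrder (ρ g) → IsOfFinOrder g := by
    intro G _ H _ ρ hρ g h
    obtain ⟨m, hm, hm1⟩ := isOfFinOrder_iff_pow_eq_one.mp h
    exact isOfFinOrder_iff_pow_eq_one.mpr ⟨m, hm, hρ (by rw [map_pow, hm1, map_one])⟩
  have hlin6 : ∀ (G : Type u) [Group G] (p : ℕ) [Fact p.Prime] (K : Type v) [Field K]
      [CharP K p] (n : ℕ) (ρ : G →* GL (Fin n) K), Function.Injective ρ → FinTors G →
      BassQ1 G := by
    intro G _ p _ K _ _ n ρ hρ hfin
    exact q1_of_crit G hfin (fun g hg => hcp G p K n ρ g (fun h => hg (hfo G _ ρ hρ g h)))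
  have hall : ∀ (G : Type u) [Group G], FinTors G → (∀ g : G, ¬ IsOfFinOrder g → Vanish g) →
      BassQ1 G := by
    intro G _ hfin hv q e he
    refine ⟨_, hfin, fun C hC => hC, ?_⟩
    intro C hC
    obtain ⟨g, rfl⟩ := ConjClasses.exists_rep C
    exact hv g (fun h => hC ⟨g, h, rfl⟩) q e he
  refine ⟨?_, ?_, ?_, ?_, ?_, ?_, hall, ?_, hlin6, ?_⟩
  · intro G _ K _ n ρ g hg q e he
    exact linall G K n ρ g hg q e he
  · intro G _ p _ K _ _ n ρ g hg q e he
    exact core G g (hcp G p K n ρ g hg) q e he
  · intro G _ K _ D _ _ _ ρ g hg q e he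
    exact division (K := K) ρ g hg q e he
  · intro G _ g L h A hL hh hA hg q e he
    exact core G g (crit_of_hom g L hL h hh A hA hg) q e he
  · intro G _ g L hL hc ham q e he
    exact core G g (AM.amen_proof G g L hL hc ham) q e he
  · intro G _ X _ _ hX hiso g o ho q e he
    exact core G g (hcat G X hX hiso g o ho) q e he
  · intro G _ K _ n ρ hu hfin
    exact q1_linear G K n ρ hu hfin
  · intro G _ K _ D _ _ _ ρ hρ hfin
    exact hall G hfin (fun g hg => division (K := K) ρ g (fun h => hg (hfo G _ ρ hρ g h)))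

end Vale.Agent.Results.P184.AllLinear
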