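import Vale.Agent.P184.Main

/-!
P184 (the l1-Bass conjecture): vanishing of the trace coefficients of idempotents over `ℓ¹(G)` at
conjugacy classes of infinite order.
-/

namespace Vale.Agent.Results.P184.Criterion

open Vale.Agent.P184

universe u v

theorem result :
    -- (1) the criterion
    (∀ (G : Type u) [Group G] (g : G) (L : G → ℝ)
      (h : Subgroup.centralizer ({g} : Set G) → ℝ) (A : ℝ), IsLength L →
      (∀ k k', h (k * k') = h k + h k') → (∀ k, |h k| ≤ A + L k) →
      (∀ k : Subgroup.centralizer ({g} : Set G), (k : G) = g → h k ≠ 0) →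
      ∀ (q : ℕ) (e : Fin q → Fin q → G → ℂ), IsIdem e → tau e (ConjClasses.mk g) = 0) ∧
    -- (2) undistorted elements with amenable centralizer
    (∀ (G : Type u) [Group G] (g : G) (L : G → ℝ), IsLength L →
      (∃ c : ℝ, 0 < c ∧ ∀ n : ℕ, c * n ≤ L (g ^ n)) →
      IsAmenable (Subgroup.centralizer ({g} : Set G)) →
      ∀ (q : ℕ) (e : Fin q → Fin q → G → ℂ), IsIdem e → tau e (ConjClasses.mk g) = 0) ∧
    -- (3) linear groups over a field with an absolute value
    (∀ (G : Type u) [Group G] (K : Type v) [Field K] (a : AbsoluteValue K ℝ) (n : ℕ)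
      (ρ : G →* GL (Fin n) K) (g : G) (μ : K) (w : Fin n → K), w ≠ 0 →
      ((ρ g : GL (Fin n) K) : Matrix (Fin n) (Fin n) K).mulVec w = μ • w → a μ ≠ 1 →
      ∀ (q : ℕ) (e : Fin q → Fin q → G → ℂ), IsIdem e → tau e (ConjClasses.mk g) = 0) ∧
    -- (4) linear groups in positive characteristic: all elements with image of infinite order
    (∀ (G : Type u) [Group G] (p : ℕ) [Fact p.Prime] (K : Type v) [Field K] [CharP K p] (n : ℕ)
      (ρ : G →* GL (Fin n) K) (g : G), ¬ IsOfFinOrder (ρ g) →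
      ∀ (q : ℕ) (e : Fin q → Fin q → G → ℂ), IsIdem e → tau e (ConjClasses.mk g) = 0) ∧
    -- (5) isometric actions on CAT(0) spaces: all elements of positive stable translation length
    (∀ (G : Type u) [Group G] (X : Type v) [MetricSpace X] [MulAction G X], CN X →
      (∀ (x : G) (s t : X), dist (x • s) (x • t) = dist s t) →
      ∀ (g : G) (o : X), (∃ c : ℝ, 0 < c ∧ ∀ n : ℕ, c * n ≤ dist (g ^ n • o) o) →
      ∀ (q : ℕ) (e : Fin q → Fin q → G → ℂ), IsIdem e → tau e (ConjClasses.mk g) = 0) ∧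
    -- (6) Q1 for linear groups in positive characteristic with finitely many torsion classes,
    -- for instance for the torsion-free ones
    (∀ (G : Type u) [Group G] (p : ℕ) [Fact p.Prime] (K : Type v) [Field K] [CharP K p] (n : ℕ)
      (ρ : G →* GL (Fin n) K), Function.Injective ρ → FinTors G → BassQ1 G) ∧
    (∀ (G : Type u) [Group G] (p : ℕ) [Fact p.Prime] (K : Type v) [Field K] [CharP K p] (n : ℕ)
      (ρ : G →* GL (Fin n) K), Function.Injective ρ → (∀ g : G, IsOfFinOrder g → g = 1) →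
      BassQ1 G) ∧
    -- (7) Q1 for CAT(0) groups
    (∀ (G : Type u) [Group G] (X : Type v) [MetricSpace X] [MulAction G X], CN X →
      (∀ (x : G) (s t : X), dist (x • s) (x • t) = dist s t) →
      (∀ g : G, ¬ IsOfFinOrder g → ∃ (o : X) (c : ℝ), 0 < c ∧
        ∀ n : ℕ, c * n ≤ dist (g ^ n • o) o) → FinTors G → BassQ1 G) ∧
    -- (8) Q1 for groups with undistorted elements and amenable centralizers (hyperbolic groups)
    (∀ (G : Type u) [Group G] (L : G → ℝ), IsLength L →
      (∀ g : G, ¬ IsOfFinOrder g → (∃ c : ℝ, 0 < c ∧ ∀ n : ℕ, c * n ≤ L (g ^ n)) ∧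
        IsAmenable (Subgroup.centralizer ({g} : Set G))) → FinTors G → BassQ1 G) := by
  have hcp : ∀ (G : Type u) [Group G] (p : ℕ) [Fact p.Prime] (K : Type v) [Field K] [CharP K p]
      (n : ℕ) (ρ : G →* GL (Fin n) K) (g : G), ¬ IsOfFinOrder (ρ g) → Crit g := by
    intro G _ p _ K _ _ n ρ g hg
    refine charp G p K n ρ g (fun m hm hm1 => hg ?_)
    exact isOfFinOrder_iff_pow_eq_one.mpr ⟨m, hm, hm1⟩
  have hcat : ∀ (G : Type u) [Group G] (X : Type v) [MetricSpace X] [MulAction G X], CN X →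
      (∀ (x : G) (s t : X), dist (x • s) (x • t) = dist s t) →
      ∀ (g : G) (o : X), (∃ c : ℝ, 0 < c ∧ ∀ n : ℕ, c * n ≤ dist (g ^ n • o) o) → Crit g := by
    intro G _ X _ _ hX hiso g o ho
    exact CA.cat_proof G X hX (fun x s => x • s) (fun x y s => mul_smul x y s)
      (fun s => one_smul G s) hiso g o ho
  have hlin6 : ∀ (G : Type u) [Group G] (p : ℕ) [Fact p.Prime] (K : Type v) [Field K]
      [CharP K p] (n : ℕ) (ρ : G →* GL (Fin n) K), Function.Injective ρ → FinTors G →
      BassQ1 G := by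
    intro G _ p _ K _ _ n ρ hρ hfin
    refine q1_of_crit G hfin (fun g hg => hcp G p K n ρ g (fun h => hg ?_))
    exact (isOfFinOrder_iff_pow_eq_one.mpr (by
      obtain ⟨m, hm, hm1⟩ := isOfFinOrder_iff_pow_eq_one.mp h
      exact ⟨m, hm, hρ (by rw [map_pow, hm1, map_one])⟩))
  refine ⟨?_, ?_, ?_, ?_, ?_, hlin6, ?_, ?_, ?_⟩
  · intro G _ g L h A hL hh hA hg q e he
    exact core G g (crit_of_hom g L hL h hh A hA hg) q e he
  · intro G _ g L hL hc ham q e he
    exact core G g (AM.amen_proof G g L hL hc ham) q e he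
  · intro G _ K _ a n ρ g μ w hw hμ ha q e he
    exact core G g (Lin.x_proof G K a n ρ g μ w hw hμ ha) q e he
  · intro G _ p _ K _ _ n ρ g hg q e he
    exact core G g (hcp G p K n ρ g hg) q e he
  · intro G _ X _ _ hX hiso g o ho q e he
    exact core G g (hcat G X hX hiso g o ho) q e he
  · intro G _ p _ K _ _ n ρ hρ htf
    refine hlin6 G p K n ρ hρ ?_
    refine (Set.finite_singleton (ConjClasses.mk (1 : G))).subset ?_
    rintro C ⟨g, hg, rfl⟩
    rw [htf g hg]
    exact Set.mem_singleton _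
  · intro G _ X _ _ hX hiso htr hfin
    refine q1_of_crit G hfin (fun g hg => ?_)
    obtain ⟨o, c, hc, hn⟩ := htr g hg
    exact hcat G X hX hiso g o ⟨c, hc, hn⟩
  · intro G _ L hL hg hfin
    refine q1_of_crit G hfin (fun g hgo => ?_)
    obtain ⟨h1, h2⟩ := hg g hgo
    exact AM.amen_proof G g L hL h1 h2

end Vale.Agent.Results.P184.Criterion
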